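import Mathlib

/-! P323: the Partition Principle and the Axiom of Choice in permutation models. -/

namespace Vale.Agent.P323

universe u

/-- A normal filter of subgroups of a group `G`, the datum of a permutation model: the members
are the subgroups that occur as supports. -/
structure NormalFilter (G : Type u) [Group G] where
  mem : Subgroup G → Prop
  top : mem ⊤
  inf : ∀ H K, mem H → mem K → mem (H ⊓ K)
  up : ∀ H K, mem H → H ≤ K → mem K
  conj : ∀ H, mem H → ∀ g : G, mem (H.map (MulAut.conj g).toMonoidHom)

variable {G : Type u} [Group G]

/-- A set `X` with an action of a member `H` of the filter is symmetric if each point is fixed by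
a member of the filter. These are the sets with support `H` of the permutation model. -/
def Symmetric (F : NormalFilter G) (H : Subgroup G) (X : Type u) [MulAction H X] : Prop :=
  ∀ x : X, ∃ K, F.mem K ∧ ∀ h : H, (h : G) ∈ K → h • x = x

/-- `j : Y → X` commutes with the elements of `H` that lie in `H'`: it has support `H'`. -/
def SupportedBy (H H' : Subgroup G) {X Y : Type u} [MulAction H X] [MulAction H Y] (j : Y → X) :
    Prop :=
  ∀ h : H, (h : G) ∈ H' → ∀ y, j (h • y) = h • j y

/-- The Partition Principle in the permutation model: if `X`, `Y` and a surjection `f : X → Y`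
have support `H`, then some injection `Y → X` has a support `H'`. -/
def PP (F : NormalFilter G) : Prop :=
  ∀ H : Subgroup G, F.mem H → ∀ (X Y : Type u) [MulAction H X] [MulAction H Y],
    Symmetric F H X → Symmetric F H Y → ∀ f : X → Y, (∀ (h : H) (x : X), f (h • x) = h • f x) →
      Function.Surjective f →
      ∃ H', F.mem H' ∧ ∃ j : Y → X, SupportedBy H H' j ∧ Function.Injective j

/-- The Axiom of Choice in the permutation model: if `X`, `Y` and a surjection `f : X → Y` have
support `H`, then some right inverse of `f` has a support `H'`. -/
def AC (F : NormalFilter G) : Prop :=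
  ∀ H : Subgroup G, F.mem H → ∀ (X Y : Type u) [MulAction H X] [MulAction H Y],
    Symmetric F H X → Symmetric F H Y → ∀ f : X → Y, (∀ (h : H) (x : X), f (h • x) = h • f x) →
      Function.Surjective f →
      ∃ H', F.mem H' ∧ ∃ j : Y → X, SupportedBy H H' j ∧ ∀ y, f (j y) = y

/-- Some member `H` of the filter has arbitrarily small members of the filter that are normalised
by `H` (for example, if the members of the filter contained in `H` are normal in `H`). -/
def HasNormalBase (F : NormalFilter G) : Prop :=
  ∃ H, F.mem H ∧ ∀ K, F.mem K → ∃ N, F.mem N ∧ N ≤ K ∧ N ≤ H ∧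
    ∀ h ∈ H, ∀ n ∈ N, h * n * h⁻¹ ∈ N

end Vale.Agent.P323
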