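import Vale.Agent.P323.Defs

/-! P323: permutation models with finite supports. -/

namespace Vale.Agent.P323

universe u

variable {G : Type u} [Group G]

theorem avoid (F : NormalFilter G) (hPP : PP F) (S : Subgroup G → Prop)
    (hS : ∀ K, F.mem K → ∃ N, F.mem N ∧ N ≤ K ∧ S N) :
    ∃ H', F.mem H' ∧ ∀ L, F.mem L → ∃ (N : Subgroup G) (g : G), F.mem N ∧ S N ∧
      ∀ h ∈ H', (h ∈ L ↔ g⁻¹ * h * g ∈ N) := by
  classical
  let P := {N : Subgroup G // F.mem N}
  have hS' : ∀ L : P, ∃ N : P, (N : Subgroup G) ≤ L ∧ S N := fun L => by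
    obtain ⟨N, h1, h2, h3⟩ := hS L L.2
    exact ⟨⟨N, h1⟩, h2, h3⟩
  choose s hsle hsS using hS'
  let X := Σ L : P, G ⧸ (s L : Subgroup G)
  let Y := Σ L : P, G ⧸ (L : Subgroup G)
  let f : X → Y := fun x => ⟨x.1, Subgroup.quotientMapOfLE (hsle x.1) x.2⟩
  have hf : ∀ (h : (⊤ : Subgroup G)) (x : X), f (h • x) = h • f x := by
    rintro h ⟨L, q⟩
    induction q using QuotientGroup.induction_on with
    | H g => rfl
  have hfs : Function.Surjective f := by
    rintro ⟨L, q⟩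
    induction q using QuotientGroup.induction_on with
    | H g => exact ⟨⟨L, (g : G ⧸ (s L : Subgroup G))⟩, rfl⟩
  have fixq : ∀ (N : Subgroup G) (h g : G), h • (g : G ⧸ N) = (g : G ⧸ N) ↔ g⁻¹ * h * g ∈ N := by
    intro N h g
    change ((h * g : G) : G ⧸ N) = (g : G ⧸ N) ↔ _
    rw [eq_comm, QuotientGroup.eq, mul_assoc]
  have fixX : ∀ (h : (⊤ : Subgroup G)) (L : P) (g : G),
      h • (⟨L, (g : G ⧸ (s L : Subgroup G))⟩ : X) = ⟨L, g⟩ ↔ g⁻¹ * (h : G) * g ∈ (s L : Subgroup G) := by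
    intro h L g
    rw [← fixq]
    change (⟨L, (h : G) • (g : G ⧸ (s L : Subgroup G))⟩ : X) = ⟨L, g⟩ ↔ _
    simp
  have fixY : ∀ (h : (⊤ : Subgroup G)) (L : P) (g : G),
      h • (⟨L, (g : G ⧸ (L : Subgroup G))⟩ : Y) = ⟨L, g⟩ ↔ g⁻¹ * (h : G) * g ∈ (L : Subgroup G) := by
    intro h L g
    rw [← fixq]
    change (⟨L, (h : G) • (g : G ⧸ (L : Subgroup G))⟩ : Y) = ⟨L, g⟩ ↔ _
    simp
  have hconj : ∀ (N : Subgroup G), F.mem N → ∀ g : G, ∃ K, F.mem K ∧ ∀ h ∈ K, g⁻¹ * h * g ∈ N := by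
    intro N hN g
    refine ⟨_, F.conj N hN g, ?_⟩
    rintro _ ⟨n, hn, rfl⟩
    have : g⁻¹ * ((MulAut.conj g).toMonoidHom n) * g = n := by
      change g⁻¹ * (g * n * g⁻¹) * g = n
      group
    rw [this]
    exact hn
  have hX : Symmetric F ⊤ X := by
    rintro ⟨L, q⟩
    induction q using QuotientGroup.induction_on with
    | H g =>
      obtain ⟨K, hK, hKN⟩ := hconj (s L) (s L).2 g
      exact ⟨K, hK, fun h hh => (fixX h L g).2 (hKN _ hh)⟩
  have hY : Symmetric F ⊤ Y := by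
    rintro ⟨L, q⟩
    induction q using QuotientGroup.induction_on with
    | H g =>
      obtain ⟨K, hK, hKN⟩ := hconj L L.2 g
      exact ⟨K, hK, fun h hh => (fixY h L g).2 (hKN _ hh)⟩
  obtain ⟨H', hH', j, hj, hinj⟩ := hPP ⊤ F.top X Y hX hY f hf hfs
  refine ⟨H', hH', fun L hL => ?_⟩
  let y : Y := ⟨⟨L, hL⟩, ((1 : G) : G ⧸ L)⟩
  obtain ⟨⟨L', q⟩, hx⟩ : ∃ x : X, x = j y := ⟨_, rfl⟩
  induction q using QuotientGroup.induction_on with
  | H g =>
    refine ⟨s L', g, (s L').2, hsS L', fun h hh => ?_⟩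
    let t : (⊤ : Subgroup G) := ⟨h, Subgroup.mem_top h⟩
    have e1 : t • y = y ↔ _ := fixY t ⟨L, hL⟩ 1
    have e2 := fixX t L' g
    have hj' : j (t • y) = t • j y := hj t hh y
    rw [hx] at e2
    have e3 : j (t • y) = j y ↔ h ∈ L := by
      rw [hinj.eq_iff, e1]
      simp [t]
    have e4 : j (t • y) = j y ↔ g⁻¹ * h * g ∈ (s L' : Subgroup G) := by
      rw [hj']
      exact e2
    exact e3.symm.trans e4

section
variable (G) (A : Type u) [MulAction G A]

/-- The filter of finite supports: the subgroups that contain the pointwise stabiliser of a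
finite set of atoms. -/
def finiteSupport : NormalFilter G where
  mem K := ∃ E : Finset A, ∀ g : G, (∀ a ∈ E, g • a = a) → g ∈ K
  top := ⟨∅, fun _ _ => trivial⟩
  inf := by
    classical
    rintro H K ⟨E, hE⟩ ⟨E', hE'⟩
    exact ⟨E ∪ E', fun g hg => ⟨hE g fun a ha => hg a (Finset.mem_union_left _ ha),
      hE' g fun a ha => hg a (Finset.mem_union_right _ ha)⟩⟩
  up := by
    rintro H K ⟨E, hE⟩ hle
    exact ⟨E, fun g hg => hle (hE g hg)⟩
  conj := by
    classical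
    rintro H ⟨E, hE⟩ g
    refine ⟨E.image fun a => g • a, fun x hx => ⟨g⁻¹ * x * g, hE _ fun a ha => ?_, ?_⟩⟩
    · have := hx (g • a) (Finset.mem_image_of_mem _ ha)
      rw [mul_smul, mul_smul, this, inv_smul_smul]
    · change g * (g⁻¹ * x * g) * g⁻¹ = x
      group
end

section
variable {A : Type u} [MulAction G A]

/-- the least size of a support -/
noncomputable def rk (A : Type u) [MulAction G A] (K : Subgroup G) : ℕ :=
  sInf {n | ∃ E : Finset A, E.card = n ∧ ∀ g : G, (∀ a ∈ E, g • a = a) → g ∈ K}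

theorem rk_le {K : Subgroup G} (E : Finset A) (h : ∀ g : G, (∀ a ∈ E, g • a = a) → g ∈ K) :
    rk A K ≤ E.card := Nat.sInf_le ⟨E, rfl, h⟩

theorem rk_spec {K : Subgroup G} (h : (finiteSupport G A).mem K) :
    ∃ E : Finset A, E.card = rk A K ∧ ∀ g : G, (∀ a ∈ E, g • a = a) → g ∈ K := by
  obtain ⟨E, hE⟩ := h
  exact Nat.sInf_mem (s := {n | ∃ E : Finset A, E.card = n ∧
    ∀ g : G, (∀ a ∈ E, g • a = a) → g ∈ K}) ⟨_, E, rfl, hE⟩

theorem rk_anti {K K' : Subgroup G} (h : (finiteSupport G A).mem K) (hle : K ≤ K') :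
    rk A K' ≤ rk A K := by
  obtain ⟨E, h1, h2⟩ := rk_spec h
  rw [← h1]
  exact rk_le E fun g hg => hle (h2 g hg)

theorem rk_inf {K K' : Subgroup G} (h : (finiteSupport G A).mem K)
    (h' : (finiteSupport G A).mem K') : rk A (K ⊓ K') ≤ rk A K + rk A K' := by
  classical
  obtain ⟨E, h1, h2⟩ := rk_spec h
  obtain ⟨E', h1', h2'⟩ := rk_spec h'
  rw [← h1, ← h1']
  refine (rk_le (K := K ⊓ K') (E ∪ E') fun g hg => Subgroup.mem_inf.2
    ⟨h2 g fun a ha => hg a (Finset.mem_union_left _ ha),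
    h2' g fun a ha => hg a (Finset.mem_union_right _ ha)⟩).trans (Finset.card_union_le _ _)

/-- conjugate subgroup -/
def cj (g : G) (N : Subgroup G) : Subgroup G := N.comap (MulAut.conj g⁻¹).toMonoidHom

theorem mem_cj {g h : G} {N : Subgroup G} : h ∈ cj g N ↔ g⁻¹ * h * g ∈ N := by
  change g⁻¹ * h * (g⁻¹)⁻¹ ∈ N ↔ _
  rw [inv_inv]

theorem rk_cj (g : G) {N : Subgroup G} (h : (finiteSupport G A).mem N) :
    (finiteSupport G A).mem (cj g N) ∧ rk A (cj g N) ≤ rk A N := by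
  classical
  obtain ⟨E, h1, h2⟩ := rk_spec h
  have key : ∀ x : G, (∀ a ∈ E.image fun a => g • a, x • a = a) → x ∈ cj g N := by
    intro x hx
    rw [mem_cj]
    refine h2 _ fun a ha => ?_
    have := hx (g • a) (Finset.mem_image_of_mem _ ha)
    rw [mul_smul, mul_smul, this, inv_smul_smul]
  refine ⟨⟨_, key⟩, ?_⟩
  rw [← h1]
  exact (rk_le _ key).trans Finset.card_image_le

theorem rk_cj_ge (g : G) {N : Subgroup G} (h : (finiteSupport G A).mem N) :
    rk A N ≤ rk A (cj g N) := by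
  have h1 := (rk_cj g h).1
  have h2 := (rk_cj g⁻¹ h1).2
  have h3 : cj g⁻¹ (cj g N) = N := by
    ext x
    rw [mem_cj, mem_cj]
    have : g⁻¹ * ((g⁻¹)⁻¹ * x * g⁻¹) * g = x := by group
    rw [this]
  rwa [h3] at h2

/-- pointwise stabiliser -/
def fx (G : Type u) [Group G] {A : Type u} [MulAction G A] (E : Finset A) : Subgroup G where
  carrier := {g | ∀ a ∈ E, g • a = a}
  one_mem' := fun a _ => one_smul _ _
  mul_mem' := fun {x y} hx hy a ha => by rw [mul_smul, hy a ha, hx a ha]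
  inv_mem' := fun {x} hx a ha => by rw [inv_smul_eq_iff, hx a ha]

theorem mem_fx (E : Finset A) : (finiteSupport G A).mem (fx G E) := ⟨E, fun _ hg => hg⟩

theorem ivt {K : Subgroup G} (hK : (finiteSupport G A).mem K) (E : Finset A) :
    ∀ l, rk A K ≤ l → l ≤ rk A (K ⊓ fx G E) →
      ∃ L, (finiteSupport G A).mem L ∧ L ≤ K ∧ rk A L = l := by
  classical
  induction E using Finset.induction_on with
  | empty =>
    intro l h1 h2
    have h3 : K ⊓ fx G (∅ : Finset A) = K := by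
      refine inf_eq_left.2 fun g _ a ha => ?_
      simp at ha
    rw [h3] at h2
    exact ⟨K, hK, le_rfl, le_antisymm h1 h2⟩
  | insert a E ha ih =>
    intro l h1 h2
    rcases le_or_gt l (rk A (K ⊓ fx G E)) with h3 | h3
    · exact ih l h1 h3
    · have h4 : (finiteSupport G A).mem (K ⊓ fx G E) := (finiteSupport G A).inf _ _ hK (mem_fx E)
      have h5 : K ⊓ fx G (insert a E) = (K ⊓ fx G E) ⊓ fx G {a} := by
        ext g
        constructor
        · rintro ⟨x, y⟩
          exact ⟨⟨x, fun b hb => y b (Finset.mem_insert_of_mem hb)⟩, fun b hb => by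
            rw [Finset.mem_singleton] at hb
            exact y b (hb ▸ Finset.mem_insert_self _ _)⟩
        · rintro ⟨⟨x, y⟩, z⟩
          refine ⟨x, fun b hb => ?_⟩
          rcases Finset.mem_insert.1 hb with rfl | hb
          · exact z b (Finset.mem_singleton_self _)
          · exact y b hb
      have h6 : rk A (fx G ({a} : Finset A)) ≤ 1 := (rk_le {a} fun _ hg => hg)
      have h7 := rk_inf h4 (mem_fx ({a} : Finset A))
      rw [← h5] at h7
      exact ⟨K ⊓ fx G (insert a E), (finiteSupport G A).inf _ _ hK (mem_fx _), inf_le_left,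
        by omega⟩

/-- In a permutation model with finite supports in which the Partition Principle holds, the
supports have bounded size. -/
theorem bounded_of_pp (h : PP (finiteSupport G A)) : ∃ n : ℕ, ∀ E : Finset A, ∃ E' : Finset A,
    E'.card ≤ n ∧ ∀ g : G, (∀ a ∈ E', g • a = a) → ∀ a ∈ E, g • a = a := by
  by_contra hc
  push Not at hc
  have hbig : ∀ n, ∃ E : Finset A, n < rk A (fx G E) := by
    intro n
    obtain ⟨E, hE⟩ := hc n
    refine ⟨E, ?_⟩
    by_contra hle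
    push Not at hle
    obtain ⟨E', h1, h2⟩ := rk_spec (mem_fx (G := G) E)
    obtain ⟨g, hg, a, ha, hne⟩ := hE E' (h1.trans_le hle)
    exact hne (h2 g hg a ha)
  have hall : ∀ K, (finiteSupport G A).mem K → ∀ l, rk A K ≤ l →
      ∃ L, (finiteSupport G A).mem L ∧ L ≤ K ∧ rk A L = l := by
    intro K hK l hl
    obtain ⟨E, hE⟩ := hbig l
    refine ivt hK E l hl ?_
    have h1 : (finiteSupport G A).mem (K ⊓ fx G E) := (finiteSupport G A).inf _ _ hK (mem_fx E)
    exact hE.le.trans (rk_anti h1 inf_le_right)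
  obtain ⟨H', hH', hL⟩ := avoid (finiteSupport G A) h (fun N => ∃ k, rk A N = 2 ^ k) (by
    intro K hK
    obtain ⟨L, h1, h2, h3⟩ := hall K hK (2 ^ rk A K) (Nat.lt_two_pow_self).le
    exact ⟨L, h1, h2, _, h3⟩)
  set r := rk A H' with hr
  have hpow : r + 2 ≤ 2 ^ (r + 2) := (Nat.lt_two_pow_self).le
  obtain ⟨L, h1, h2, h3⟩ := hall H' hH' (2 ^ (r + 3) - 1) (by
    have : 2 ^ (r + 3) = 2 * 2 ^ (r + 2) := by ring
    omega)
  obtain ⟨N, g, h4, ⟨k, hk⟩, h5⟩ := hL L h1
  have h6 : L = H' ⊓ cj g N := by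
    ext x
    constructor
    · intro hx
      exact ⟨h2 hx, mem_cj.2 ((h5 x (h2 hx)).1 hx)⟩
    · rintro ⟨hx, hx'⟩
      exact (h5 x hx).2 (mem_cj.1 hx')
  have h7 : rk A L ≤ r + rk A N := by
    rw [h6]
    exact (rk_inf hH' (rk_cj g h4).1).trans (Nat.add_le_add_left (rk_cj g h4).2 _)
  have h8 : rk A N ≤ rk A L := (rk_cj_ge g h4).trans (rk_anti h1 (by rw [h6]; exact inf_le_right))
  rw [h3, hk] at h7 h8
  have h9 : 2 ^ (r + 3) = 2 * 2 ^ (r + 2) := by ring
  have h10 : 2 ^ (r + 2) < 2 ^ k := by omega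
  have h11 : 2 ^ k < 2 ^ (r + 3) := by omega
  have h12 := (Nat.pow_lt_pow_iff_right (by norm_num : 1 < 2)).1 h10
  have h13 := (Nat.pow_lt_pow_iff_right (by norm_num : 1 < 2)).1 h11
  omega
end

end Vale.Agent.P323
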