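import Mathlib

/-! P323: an avoiding coinitial family in a directed set without minimum. -/

namespace Vale.Agent.P323

universe u

theorem exists_split (P : Type u) [SemilatticeInf P] (h : ∀ p : P, ∃ q, ¬ p ≤ q) :
    ∃ S : Set P, (∀ p, ∃ s ∈ S, s ≤ p) ∧ ∀ b : P, ∃ l ≤ b, ∀ s ∈ S, b ⊓ s ≠ l := by
  classical
  let C : Set Cardinal.{u} := {c | ∃ ι : Type u, Cardinal.mk ι = c ∧ ∃ B : ι → P, ∀ p, ∃ i, B i ≤ p}
  have hC : C.Nonempty := ⟨_, P, rfl, id, fun p => ⟨p, le_rfl⟩⟩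
  obtain ⟨ι₀, hι₀, B₀, hB₀⟩ := csInf_mem hC
  have hmk : Cardinal.mk (sInf C).ord.ToType = sInf C := by simp
  obtain ⟨e⟩ := Cardinal.eq.1 (hmk.trans hι₀.symm)
  let ι := (sInf C).ord.ToType
  let B : ι → P := fun i => B₀ (e i)
  have hB : ∀ p, ∃ i, B i ≤ p := fun p => by
    obtain ⟨i, hi⟩ := hB₀ p
    exact ⟨e.symm i, by simpa [B] using hi⟩
  have hnon : ∀ (i : ι) (N : (j : ι) → j < i → P), ∃ U, ∀ j hj, ¬ N j hj ≤ U := by
    intro i N
    by_contra hc
    push Not at hc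
    have h1 : Cardinal.mk (Set.Iio i) ∈ C :=
      ⟨Set.Iio i, rfl, fun j => N j.1 j.2, fun p => by
        obtain ⟨j, hj, hle⟩ := hc p
        exact ⟨⟨j, hj⟩, hle⟩⟩
    have h2 : Cardinal.mk (Set.Iio i) < sInf C := Cardinal.mk_Iio_toType_ord_lt i
    exact absurd (csInf_le' h1) (not_le.2 h2)
  have step : ∀ (i : ι) (prev : (j : ι) → j < i → P × P), ∃ x : P × P, x.1 ≤ B i ∧ x.2 ≤ B i ∧
      (∀ j hj, B i ⊓ (prev j hj).2 ≠ x.1) ∧ (∀ j hj, ¬ (prev j hj).1 ≤ x.2) ∧ ¬ x.1 ≤ x.2 := by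
    intro i prev
    obtain ⟨U₁, h₁⟩ := hnon i fun j hj => B i ⊓ (prev j hj).2
    obtain ⟨U₂, h₂⟩ := hnon i fun j hj => (prev j hj).1
    obtain ⟨q, hq⟩ := h (B i ⊓ U₁)
    refine ⟨(B i ⊓ U₁, B i ⊓ U₂ ⊓ q), inf_le_left, inf_le_left.trans inf_le_left, ?_, ?_, ?_⟩
    · intro j hj he
      exact h₁ j hj (he.le.trans inf_le_right)
    · intro j hj hle
      exact h₂ j hj (hle.trans (inf_le_left.trans inf_le_right))
    · intro hle
      exact hq (hle.trans inf_le_right)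
  have wf : WellFounded ((· < ·) : ι → ι → Prop) := wellFounded_lt
  let g : ι → P × P := wf.fix fun i prev => Classical.choose (step i prev)
  have hg : ∀ i, (g i).1 ≤ B i ∧ (g i).2 ≤ B i ∧ (∀ j, j < i → B i ⊓ (g j).2 ≠ (g i).1) ∧
      (∀ j, j < i → ¬ (g j).1 ≤ (g i).2) ∧ ¬ (g i).1 ≤ (g i).2 := by
    intro i
    have he : g i = Classical.choose (step i fun j _ => g j) := wf.fix_eq _ i
    have hs := Classical.choose_spec (step i fun j _ => g j)
    rw [← he] at hs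
    exact hs
  refine ⟨Set.range fun i => (g i).2, fun p => ?_, fun b => ?_⟩
  · obtain ⟨i, hi⟩ := hB p
    exact ⟨_, ⟨i, rfl⟩, (hg i).2.1.trans hi⟩
  · obtain ⟨i, hi⟩ := hB b
    refine ⟨(g i).1, (hg i).1.trans hi, ?_⟩
    rintro _ ⟨j, rfl⟩ he
    have he2 : B i ⊓ (g j).2 = (g i).1 := by
      apply le_antisymm
      · rw [← he]
        exact inf_le_inf_right _ hi
      · refine le_inf (hg i).1 ?_
        rw [← he]
        exact inf_le_right
    rcases lt_or_ge j i with hji | hji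
    · exact (hg i).2.2.1 j hji he2
    · have hle : (g i).1 ≤ (g j).2 := by
        rw [← he2]
        exact inf_le_right
      rcases hji.lt_or_eq with h1 | h1
      · exact (hg j).2.2.2.1 i h1 hle
      · subst h1
        exact (hg i).2.2.2.2 hle

end Vale.Agent.P323
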