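import Vale.Agent.P323.Defs
import Vale.Agent.P323.Split

/-! P323: the Partition Principle implies the Axiom of Choice in permutation models with normal
bases. -/

namespace Vale.Agent.P323

universe u

variable {G : Type u} [Group G]

theorem ac_imp_pp (F : NormalFilter G) (h : AC F) : PP F := by
  intro H hH X Y _ _ hX hY f hf hs
  obtain ⟨H', hH', j, hj, hfj⟩ := h H hH X Y hX hY f hf hs
  exact ⟨H', hH', j, hj, Function.LeftInverse.injective hfj⟩

theorem ac_of_min (F : NormalFilter G) (M : Subgroup G) (hM : F.mem M)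
    (hmin : ∀ K, F.mem K → M ≤ K) : AC F := by
  intro H hH X Y _ _ hX hY f hf hs
  refine ⟨M, hM, Function.surjInv hs, fun h hh y => ?_, Function.surjInv_eq hs⟩
  have h1 : h • y = y := by
    obtain ⟨K, hK, hfix⟩ := hY y
    exact hfix h (hmin K hK hh)
  have h2 : h • Function.surjInv hs y = Function.surjInv hs y := by
    obtain ⟨K, hK, hfix⟩ := hX (Function.surjInv hs y)
    exact hfix h (hmin K hK hh)
  rw [h1, h2]

/-- the subgroups in the base -/
def IsNrm (F : NormalFilter G) (H N : Subgroup G) : Prop :=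
  F.mem N ∧ N ≤ H ∧ ∀ h ∈ H, ∀ n ∈ N, h * n * h⁻¹ ∈ N

theorem IsNrm.inf {F : NormalFilter G} {H N N' : Subgroup G} (h : IsNrm F H N)
    (h' : IsNrm F H N') : IsNrm F H (N ⊓ N') :=
  ⟨F.inf _ _ h.1 h'.1, inf_le_left.trans h.2.1, fun g hg n hn =>
    ⟨h.2.2 g hg n hn.1, h'.2.2 g hg n hn.2⟩⟩

theorem fix_iff {F : NormalFilter G} {H N : Subgroup G} (hN : IsNrm F H N) (h : H)
    (q : H ⧸ N.subgroupOf H) : h • q = q ↔ (h : G) ∈ N := by
  induction q using QuotientGroup.induction_on with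
  | H g =>
    change ((h * g : H) : H ⧸ N.subgroupOf H) = (g : H ⧸ N.subgroupOf H) ↔ _
    rw [QuotientGroup.eq, Subgroup.mem_subgroupOf]
    push_cast
    constructor
    · intro h1
      have h2 := hN.2.2 _ g.2 _ (N.inv_mem h1)
      have h3 : (g : G) * (((h : G) * g)⁻¹ * g)⁻¹ * (g : G)⁻¹ = h := by group
      rwa [h3] at h2
    · intro h1
      have h2 := hN.2.2 _ (H.inv_mem g.2) _ (N.inv_mem h1)
      have h3 : (g : G)⁻¹ * (h : G)⁻¹ * ((g : G)⁻¹)⁻¹ = ((h : G) * g)⁻¹ * g := by group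
      rwa [h3] at h2

theorem min_of_pp (F : NormalFilter G) (hPP : PP F) (hb : HasNormalBase F) :
    ∃ M, F.mem M ∧ ∀ K, F.mem K → M ≤ K := by
  classical
  obtain ⟨H, hH, hbase⟩ := hb
  let P := {N : Subgroup G // IsNrm F H N}
  let _ : SemilatticeInf P := Subtype.semilatticeInf fun _ _ h h' => h.inf h'
  have hbase' : ∀ K, F.mem K → ∃ N : P, (N : Subgroup G) ≤ K := by
    intro K hK
    obtain ⟨N, h1, h2, h3, h4⟩ := hbase K hK
    exact ⟨⟨N, h1, h3, h4⟩, h2⟩
  by_cases hmin : ∃ M : P, ∀ q : P, M ≤ q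
  · obtain ⟨M, hM⟩ := hmin
    refine ⟨M, M.2.1, fun K hK => ?_⟩
    obtain ⟨N, hN⟩ := hbase' K hK
    exact le_trans (show (M : Subgroup G) ≤ N from hM N) hN
  exfalso
  push Not at hmin
  obtain ⟨S, hS, hsplit⟩ := exists_split P hmin
  choose s hsS hsle using hS
  let X := Σ L : P, H ⧸ (s L : Subgroup G).subgroupOf H
  let Y := Σ L : P, H ⧸ (L : Subgroup G).subgroupOf H
  have hle : ∀ L : P, (s L : Subgroup G).subgroupOf H ≤ (L : Subgroup G).subgroupOf H :=
    fun L g hg => hsle L hg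
  let f : X → Y := fun x => ⟨x.1, Subgroup.quotientMapOfLE (hle x.1) x.2⟩
  have hf : ∀ (h : H) (x : X), f (h • x) = h • f x := by
    rintro h ⟨L, q⟩
    induction q using QuotientGroup.induction_on with
    | H g => rfl
  have hfs : Function.Surjective f := by
    rintro ⟨L, q⟩
    induction q using QuotientGroup.induction_on with
    | H g => exact ⟨⟨L, (g : H ⧸ (s L : Subgroup G).subgroupOf H)⟩, rfl⟩
  have hX : Symmetric F H X := by
    rintro ⟨L, q⟩
    refine ⟨s L, (s L).2.1, fun h hh => ?_⟩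
    change (⟨L, h • q⟩ : X) = ⟨L, q⟩
    rw [(fix_iff (s L).2 h q).2 hh]
  have hY : Symmetric F H Y := by
    rintro ⟨L, q⟩
    refine ⟨L, L.2.1, fun h hh => ?_⟩
    change (⟨L, h • q⟩ : Y) = ⟨L, q⟩
    rw [(fix_iff L.2 h q).2 hh]
  obtain ⟨H', hH', j, hj, hinj⟩ := hPP H hH X Y hX hY f hf hfs
  obtain ⟨b, hb⟩ := hbase' H' hH'
  obtain ⟨l, hlb, hl⟩ := hsplit b
  let y : Y := ⟨l, ((1 : H) : H ⧸ (l : Subgroup G).subgroupOf H)⟩
  have fixX : ∀ (h : H) (x : X), h • x = x ↔ (h : G) ∈ (s x.1 : Subgroup G) := by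
    rintro h ⟨L, q⟩
    rw [← fix_iff (s L).2 h q]
    change (⟨L, h • q⟩ : X) = ⟨L, q⟩ ↔ _
    simp
  have key : ∀ (h : H), (h : G) ∈ H' → ((h : G) ∈ (l : Subgroup G) ↔
      (h : G) ∈ (s (j y).1 : Subgroup G)) := by
    intro h hh
    have h1 : h • y = y ↔ (h : G) ∈ (l : Subgroup G) := by
      rw [← fix_iff l.2 h ((1 : H) : H ⧸ (l : Subgroup G).subgroupOf H)]
      change (⟨l, h • ((1 : H) : H ⧸ (l : Subgroup G).subgroupOf H)⟩ : Y) = ⟨l, _⟩ ↔ _
      simp
    rw [← h1, ← fixX h (j y), ← hj h hh y]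
    exact ⟨fun e => congrArg j e, fun e => hinj e⟩
  apply hl (s (j y).1) (hsS _)
  apply Subtype.ext
  ext g
  constructor
  · rintro hg
    have hgb : g ∈ (b : Subgroup G) := (show (b ⊓ s (j y).1 : P) ≤ b from inf_le_left) hg
    have hgs : g ∈ (s (j y).1 : Subgroup G) :=
      (show (b ⊓ s (j y).1 : P) ≤ s (j y).1 from inf_le_right) hg
    exact (key ⟨g, b.2.2.1 hgb⟩ (hb hgb)).2 hgs
  · intro hg
    have hgb : g ∈ (b : Subgroup G) := hlb hg
    exact ⟨hgb, (key ⟨g, b.2.2.1 hgb⟩ (hb hgb)).1 hg⟩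

theorem pp_iff_ac (F : NormalFilter G) (hb : HasNormalBase F) : PP F ↔ AC F := by
  constructor
  · intro h
    obtain ⟨M, hM, hmin⟩ := min_of_pp F h hb
    exact ac_of_min F M hM hmin
  · exact ac_imp_pp F

theorem base_of_comm (F : NormalFilter G) (H : Subgroup G) (hH : F.mem H)
    (hc : ∀ a ∈ H, ∀ b ∈ H, a * b = b * a) : HasNormalBase F :=
  ⟨H, hH, fun K hK => ⟨K ⊓ H, F.inf _ _ hK hH, inf_le_left, inf_le_right, fun h hh n hn => by
    rw [hc h hh n hn.2, mul_inv_cancel_right]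
    exact hn⟩⟩

theorem base_of_finiteIndex (F : NormalFilter G) (hf : ∀ K, F.mem K → K.FiniteIndex) :
    HasNormalBase F := by
  refine ⟨⊤, F.top, fun K hK => ⟨K.normalCore, ?_, K.normalCore_le, le_top, fun h _ n hn =>
    K.normalCore_normal.conj_mem n hn h⟩⟩
  have := hf K hK
  have hfin : Finite (G ⧸ K) := inferInstance
  -- the finite intersection of the conjugates
  have h1 : ∀ T : Finset (G ⧸ K), F.mem (T.inf fun q => K.map (MulAut.conj q.out).toMonoidHom) := by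
    classical
    intro T
    induction T using Finset.induction_on with
    | empty => simpa using F.top
    | insert a T ha ih =>
      rw [Finset.inf_insert]
      exact F.inf _ _ (F.conj _ hK _) ih
  have : Fintype (G ⧸ K) := Fintype.ofFinite _
  refine F.up _ _ (h1 Finset.univ) fun x hx => ?_
  rw [Finset.inf_eq_iInf] at hx
  intro g
  have h2 : x ∈ K.map (MulAut.conj ((QuotientGroup.mk g⁻¹ : G ⧸ K)).out).toMonoidHom := by
    have := Subgroup.mem_iInf.1 hx (QuotientGroup.mk g⁻¹)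
    simpa using this
  obtain ⟨k, hk, he⟩ := h2
  obtain ⟨t, ht⟩ := QuotientGroup.mk_out_eq_mul K g⁻¹
  rw [ht] at he
  have he' : g⁻¹ * (t : G) * k * (g⁻¹ * (t : G))⁻¹ = x := he
  have h3 : g * x * g⁻¹ = (t : G) * k * (t : G)⁻¹ := by
    rw [← he']
    group
  change g * x * g⁻¹ ∈ K
  rw [h3]
  exact K.mul_mem (K.mul_mem t.2 hk) (K.inv_mem t.2)

end Vale.Agent.P323
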