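import Vale.Agent.P323.Fin

/-! P323: the Partition Principle fails in permutation models with swaps and without
algebraicity, for arbitrary ideals of supports. -/

namespace Vale.Agent.P323

universe u

/-- An ideal of supports for the action of `G` on the set of atoms `A`: closed under unions and
under the action, containing the finite sets. -/
structure SupportIdeal (G : Type u) [Group G] (A : Type u) [MulAction G A] where
  small : Set A → Prop
  union : ∀ D E, small D → small E → small (D ∪ E)
  image : ∀ (g : G) (E : Set A), small E → small ((fun a => g • a) '' E)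
  finite : ∀ E : Set A, E.Finite → small E

/-- The normal filter of an ideal of supports: the subgroups that contain the pointwise stabiliser
of a small set of atoms. -/
def SupportIdeal.filter {G : Type u} [Group G] {A : Type u} [MulAction G A]
    (I : SupportIdeal G A) : NormalFilter G where
  mem K := ∃ E, I.small E ∧ ∀ g : G, (∀ a ∈ E, g • a = a) → g ∈ K
  top := ⟨∅, I.finite _ Set.finite_empty, fun _ _ => trivial⟩
  inf := by
    rintro H K ⟨E, h, hE⟩ ⟨E', h', hE'⟩
    exact ⟨E ∪ E', I.union _ _ h h', fun g hg => Subgroup.mem_inf.2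
      ⟨hE g fun a ha => hg a (Or.inl ha), hE' g fun a ha => hg a (Or.inr ha)⟩⟩
  up := by
    rintro H K ⟨E, h, hE⟩ hle
    exact ⟨E, h, fun g hg => hle (hE g hg)⟩
  conj := by
    rintro H ⟨E, h, hE⟩ g
    refine ⟨_, I.image g E h, fun x hx => ⟨g⁻¹ * x * g, hE _ fun a ha => ?_, ?_⟩⟩
    · have := hx (g • a) ⟨a, ha, rfl⟩
      rw [mul_smul, mul_smul, this, inv_smul_smul]
    · change g * (g⁻¹ * x * g) * g⁻¹ = x
      group

/-- pointwise stabiliser of a set -/
def fxs (G : Type u) [Group G] {A : Type u} [MulAction G A] (E : Set A) : Subgroup G where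
  carrier := {g | ∀ a ∈ E, g • a = a}
  one_mem' := fun a _ => one_smul _ _
  mul_mem' := fun {x y} hx hy a ha => by rw [mul_smul, hy a ha, hx a ha]
  inv_mem' := fun {x} hx a ha => by rw [inv_smul_eq_iff, hx a ha]

/-- stabiliser of an unordered pair -/
def pr (G : Type u) [Group G] {A : Type u} [MulAction G A] (a b : A) : Subgroup G where
  carrier := {g | ({g • a, g • b} : Set A) = {a, b}}
  one_mem' := by simp
  mul_mem' := fun {x y} hx hy => by
    change ({(x * y) • a, (x * y) • b} : Set A) = {a, b}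
    have hx' : ({x • a, x • b} : Set A) = {a, b} := hx
    have hy' : ({y • a, y • b} : Set A) = {a, b} := hy
    rw [← hx', mul_smul, mul_smul]
    have h1 : ∀ c d : A, ({x • c, x • d} : Set A) = (fun t => x • t) '' {c, d} := fun c d => by
      rw [Set.image_pair]
    rw [h1, h1, hy']
  inv_mem' := fun {x} hx => by
    change ({x⁻¹ • a, x⁻¹ • b} : Set A) = {a, b}
    have hx' : ({x • a, x • b} : Set A) = {a, b} := hx
    have h1 : ∀ (z : G) (c d : A), ({z • c, z • d} : Set A) = (fun t => z • t) '' {c, d} :=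
      fun z c d => by rw [Set.image_pair]
    calc ({x⁻¹ • a, x⁻¹ • b} : Set A) = (fun t => x⁻¹ • t) '' {a, b} := h1 _ _ _
      _ = (fun t => x⁻¹ • t) '' {x • a, x • b} := by rw [hx']
      _ = {a, b} := by rw [Set.image_pair, inv_smul_smul, inv_smul_smul]

theorem not_pp {G : Type u} [Group G] {A : Type u} [MulAction G A] (I : SupportIdeal G A)
    (h1 : ∀ D, I.small D → ∀ a ∉ D, ∀ b, ∃ k : G, (∀ d ∈ D, k • d = d) ∧ k • a ≠ a ∧ k • a ≠ b)
    (h2 : ∀ D, I.small D → ∃ g : G, (∀ d ∈ D, g • d = d) ∧ ∃ a b : A, a ≠ b ∧ g • a = b ∧ g • b = a) :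
    ¬ PP I.filter := by
  intro hPP
  obtain ⟨H', ⟨E', hE', hH'⟩, hav⟩ := avoid I.filter hPP
    (fun N => ∃ E, I.small E ∧ ∀ g : G, g ∈ N ↔ ∀ a ∈ E, g • a = a) (by
      rintro K ⟨E, hE, hK⟩
      exact ⟨fxs G E, ⟨E, hE, fun g hg => hg⟩, fun g hg => hK g hg, E, hE, fun g => Iff.rfl⟩)
  obtain ⟨g, hg, a, b, hab, hga, hgb⟩ := h2 E' hE'
  obtain ⟨N, x, -, ⟨E, hE, hN⟩, hL⟩ := hav (pr G a b)
    ⟨{a, b}, I.finite _ (Set.toFinite _), fun k hk => by
      change ({k • a, k • b} : Set A) = {a, b}
      rw [hk a (by simp), hk b (by simp)]⟩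
  have hgL : g ∈ pr G a b := by
    change ({g • a, g • b} : Set A) = {a, b}
    rw [hga, hgb, Set.pair_comm]
  have hfix : ∀ e ∈ (fun a => x • a) '' E, g • e = e := by
    rintro _ ⟨e, he, rfl⟩
    have := (hN _).1 ((hL g (hH' g hg)).1 hgL) e he
    rw [mul_smul, mul_smul, inv_smul_eq_iff] at this
    exact this
  have hD : I.small ((fun a => x • a) '' E ∪ E') := I.union _ _ (I.image x E hE) hE'
  have haD : a ∉ (fun a => x • a) '' E ∪ E' := by
    rintro (h | h)
    · exact hab ((hfix a h).symm.trans hga)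
    · exact hab ((hg a h).symm.trans hga)
  obtain ⟨k, hk, hka, hkb⟩ := h1 _ hD a haD b
  have hkL : k ∈ pr G a b := by
    refine (hL k (hH' k fun d hd => hk d (Or.inr hd))).2 ((hN _).2 fun e he => ?_)
    rw [mul_smul, mul_smul, hk (x • e) (Or.inl ⟨e, he, rfl⟩), inv_smul_smul]
  have hk' : ({k • a, k • b} : Set A) = {a, b} := hkL
  have : k • a ∈ ({a, b} : Set A) := by
    rw [← hk']
    simp
  rcases this with h | h
  · exact hka h
  · exact hkb h

/-- All permutations of `A`, countable supports. -/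
def countableSupport (A : Type u) : SupportIdeal (Equiv.Perm A) A where
  small := Set.Countable
  union := fun _ _ h h' => h.union h'
  image := fun _ _ h => h.image _
  finite := fun _ h => h.countable

theorem not_pp_countable (A : Type u) [Uncountable A] : ¬ PP (countableSupport A).filter := by
  classical
  have hne : ∀ D : Set A, D.Countable → ∃ c, c ∉ D := by
    intro D hD
    by_contra hc
    push Not at hc
    exact Set.not_countable_univ (hD.mono fun x _ => hc x)
  apply not_pp
  · intro D hD a ha b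
    obtain ⟨c, hc⟩ := hne (D ∪ {a, b}) (Set.Countable.union hD (Set.toFinite _).countable)
    have hcD : c ∉ D := fun h => hc (Or.inl h)
    have hca : c ≠ a := fun h => hc (Or.inr (by simp [h]))
    have hcb : c ≠ b := fun h => hc (Or.inr (by simp [h]))
    refine ⟨Equiv.swap a c, fun d hd => ?_, ?_, ?_⟩
    · exact Equiv.swap_apply_of_ne_of_ne (fun h => ha (h ▸ hd)) (fun h => hcD (h ▸ hd))
    · rw [Equiv.Perm.smul_def, Equiv.swap_apply_left]
      exact hca
    · rw [Equiv.Perm.smul_def, Equiv.swap_apply_left]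
      exact hcb
  · intro D hD
    obtain ⟨a, ha⟩ := hne D hD
    obtain ⟨b, hb⟩ := hne (D ∪ {a}) (Set.Countable.union hD (Set.toFinite _).countable)
    have hbD : b ∉ D := fun h => hb (Or.inl h)
    have hba : b ≠ a := fun h => hb (Or.inr (by simp [h]))
    refine ⟨Equiv.swap a b, fun d hd => ?_, a, b, hba.symm, ?_, ?_⟩
    · exact Equiv.swap_apply_of_ne_of_ne (fun h => ha (h ▸ hd)) (fun h => hbD (h ▸ hd))
    · rw [Equiv.Perm.smul_def, Equiv.swap_apply_left]
    · rw [Equiv.Perm.smul_def, Equiv.swap_apply_right]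

end Vale.Agent.P323
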