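import Vale.Agent.P323.Swap

/-! P323: choice for well-orderable families holds in the model of countable supports. -/

namespace Vale.Agent.P323

universe u

/-- `AC_wo` in the permutation model: a family `Y i`, `i ∈ I`, of nonempty sets with support `H`
(given by `p : Y → I`, the action on the index set `I` is trivial, i.e. `I` is well-orderable in the
model) has a choice function with some support `H'`. -/
def ACwo {G : Type u} [Group G] (F : NormalFilter G) : Prop :=
  ∀ H : Subgroup G, F.mem H → ∀ (I Y : Type u) [MulAction H Y], Symmetric F H Y →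
    ∀ p : Y → I, (∀ (h : H) (y : Y), p (h • y) = p y) → Function.Surjective p →
      ∃ H', F.mem H' ∧ ∃ c : I → Y, (∀ i, p (c i) = i) ∧
        ∀ h : H, (h : G) ∈ H' → ∀ i, h • c i = c i

theorem acwo_countable (A : Type u) [Uncountable A] : ACwo (countableSupport A).filter := by
  classical
  rintro H ⟨E₀, hE₀, hH⟩ I Y _ hY p hp hs
  replace hE₀ : E₀.Countable := hE₀
  have hinf : Infinite {x // x ∉ E₀} := by
    rw [← not_finite_iff_infinite]
    intro hfin
    have h1 : (E₀ᶜ : Set A).Countable := (@Set.toFinite _ {x | x ∉ E₀} hfin).countable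
    apply Set.not_countable_univ (α := A)
    rw [← Set.union_compl_self E₀]
    exact hE₀.union h1
  let τ : ℕ ↪ {x // x ∉ E₀} := Infinite.natEmbedding _
  let E' : Set A := E₀ ∪ Set.range fun n => (τ n : A)
  have hE' : E'.Countable := hE₀.union (Set.countable_range _)
  have hmove : ∀ D : Set A, D.Countable → ∃ k : Equiv.Perm A, (∀ a ∈ E₀, k a = a) ∧
      ∀ d ∈ D, k d ∈ E' := by
    intro D hD
    obtain ⟨e, he⟩ := Set.countable_iff_exists_injOn.1 hD
    let s : Set A := E₀ ∪ D
    have hs : s.Countable := hE₀.union hD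
    let f : s ↪ A := ⟨fun x => if (x : A) ∈ E₀ then x else τ (e x), by
      rintro ⟨x, hx⟩ ⟨y, hy⟩ hxy
      simp only at hxy
      apply Subtype.ext
      change x = y
      by_cases h1 : x ∈ E₀ <;> by_cases h2 : y ∈ E₀
      · simpa [h1, h2] using hxy
      · simp only [h1, h2, if_true, if_false] at hxy
        exact absurd (hxy ▸ h1) (τ (e y)).2
      · simp only [h1, h2, if_true, if_false] at hxy
        exact absurd (hxy ▸ h2) (τ (e x)).2
      · simp only [h1, h2, if_false] at hxy
        exact he (hx.resolve_left h1) (hy.resolve_left h2) (τ.injective (Subtype.ext hxy))⟩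
    obtain ⟨g, hg⟩ := Cardinal.extend_function_of_lt f
      (lt_of_le_of_lt (Cardinal.mk_le_aleph0_iff.2 hs.to_subtype)
        (Cardinal.aleph0_lt_mk_iff.2 inferInstance)) ⟨Equiv.refl A⟩
    refine ⟨g, fun a ha => ?_, fun d hd => ?_⟩
    · rw [hg ⟨a, Or.inl ha⟩]
      change (if a ∈ E₀ then a else _) = a
      rw [if_pos ha]
    · rw [hg ⟨d, Or.inr hd⟩]
      change (if d ∈ E₀ then d else ((τ (e d) : {x // x ∉ E₀}) : A)) ∈ E'
      by_cases h : d ∈ E₀
      · rw [if_pos h]
        exact Or.inl h
      · rw [if_neg h]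
        exact Or.inr ⟨e d, rfl⟩
  have key : ∀ i, ∃ y : Y, p y = i ∧ ∀ h : H, (∀ a ∈ E', (h : Equiv.Perm A) a = a) → h • y = y := by
    intro i
    obtain ⟨y, rfl⟩ := hs i
    obtain ⟨K, ⟨D, hD, hK⟩, hy⟩ := hY y
    obtain ⟨k, hk0, hkD⟩ := hmove D hD
    let k' : H := ⟨k, hH k hk0⟩
    refine ⟨k' • y, hp _ _, fun h hh => ?_⟩
    have h1 : (k'⁻¹ * h * k') • y = y := by
      apply hy
      apply hK
      intro a ha
      change k⁻¹ ((h : Equiv.Perm A) (k a)) = a
      rw [hh _ (hkD a ha)]
      exact Equiv.symm_apply_apply k a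
    rw [mul_smul, mul_smul, inv_smul_eq_iff] at h1
    exact h1
  choose c hc1 hc2 using key
  exact ⟨fxs _ E', ⟨E', hE', fun g hg => hg⟩, c, hc1, fun h hh i => hc2 i h hh⟩

end Vale.Agent.P323
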